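import Crest.Agent.R163.Q3.D.R1.Par
import Crest.Agent.R163.Q3.D.F1.F0
import Crest.Agent.R163.Q3.D.F1.F1
import Crest.Agent.R163.Q3.D.F1.F2
import Crest.Agent.R163.Q3.D.F1.F3
import Crest.Agent.R163.Q3.D.F1.F4
import Crest.Agent.R163.Q3.D.F1.F5
import Crest.Agent.R163.Q3.D.F1.F6
import Crest.Agent.R163.Q3.D.F1.F7

set_option autoImplicit false
set_option maxRecDepth 100000
set_option linter.all false
set_option Elab.async false

namespace Crest.Agent.R163.R1

abbrev f0 := F1.f0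
theorem hf0 : FitOK par f0 :=
  FitOK.of_list [1,2,3,4,5] (by decide +kernel) F1.lf0
abbrev f1 := F1.f1
theorem hf1 : FitOK par f1 :=
  FitOK.of_list [1,2,3,4,5] (by decide +kernel) F1.lf1
abbrev f2 := F1.f2
theorem hf2 : FitOK par f2 :=
  FitOK.of_list [1,2,3,4,5] (by decide +kernel) F1.lf2
abbrev f3 := F1.f3
theorem hf3 : FitOK par f3 :=
  FitOK.of_list [1,2,3,4,5] (by decide +kernel) F1.lf3
abbrev f4 := F1.f4
theorem hf4 : FitOK par f4 :=
  FitOK.of_list [1,2,3,4,5] (by decide +kernel) F1.lf4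
abbrev f5 := F1.f5
theorem hf5 : FitOK par f5 :=
  FitOK.of_list [1,2,3,4,5] (by decide +kernel) F1.lf5
abbrev f6 := F1.f6
theorem hf6 : FitOK par f6 :=
  FitOK.of_list [1,2,3,4,5] (by decide +kernel) F1.lf6
abbrev f7 := F1.f7
theorem hf7 : FitOK par f7 :=
  FitOK.of_list [1,2,3,4,5] (by decide +kernel) F1.lf7

end Crest.Agent.R163.R1
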