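import Crest.Agent.R163.Q3.D.R1.S0

set_option autoImplicit false
set_option maxRecDepth 100000
set_option linter.all false
set_option Elab.async false

namespace Crest.Agent.R163.R1

theorem c1_0 : stepsOK2 par ⟨109,23,12,1,9⟩ b1_0 s1_0 a1_0 = true := by decide +kernel
theorem c2_0 : stepsOK2 par ⟨729,23,12,1,9⟩ b2_0 s2_0 a2_0 = true := by decide +kernel
theorem c3_0 : stepsOK2 par ⟨735,23,12,1,9⟩ b3_0 s3_0 a3_0 = true := by decide +kernel
theorem c4_0 : stepsOK2 par ⟨736,23,12,1,9⟩ b4_0 s4_0 a4_0 = true := by decide +kernel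
theorem c5_0 : stepsOK2 par ⟨729,23,12,1,9⟩ b5_0 s5_0 a5_0 = true := by decide +kernel
theorem c6_0 : stepsOK2 par ⟨737,23,12,1,9⟩ b6_0 s6_0 a6_0 = true := by decide +kernel
theorem c7_0 : stepsOK2 par ⟨737,23,12,1,9⟩ b7_0 s7_0 a7_0 = true := by decide +kernel
theorem c8_0 : stepsOK2 par ⟨733,23,12,1,9⟩ b8_0 s8_0 a8_0 = true := by decide +kernel
theorem c9_0 : stepsOK2 par ⟨731,23,12,1,9⟩ b9_0 s9_0 a9_0 = true := by decide +kernel
theorem c10_0 : stepsOK2 par ⟨733,23,12,1,9⟩ b10_0 s10_0 a10_0 = true := by decide +kernel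
theorem c11_0 : stepsOK2 par ⟨736,23,12,1,9⟩ b11_0 s11_0 a11_0 = true := by decide +kernel
theorem c12_0 : stepsOK2 par ⟨738,23,12,1,9⟩ b12_0 s12_0 a12_0 = true := by decide +kernel
theorem c13_0 : stepsOK2 par ⟨739,23,12,1,9⟩ b13_0 s13_0 a13_0 = true := by decide +kernel
theorem c14_0 : stepsOK2 par ⟨736,23,12,1,9⟩ b14_0 s14_0 a14_0 = true := by decide +kernel

end Crest.Agent.R163.R1
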